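import Vale.Agent.P192.H834.Act4
import Vale.Agent.P192.H124.PMFun

/-!
# P192: piecewise monotone bijections of linear orders
-/

namespace Vale.Agent.P192.H834

/-- **Piecewise monotone bijections.** -/
theorem pmain (K : Type) [LinearOrder K] (G : Subgroup (Equiv.Perm K))
    (hG : ∀ g ∈ G, ∃ P : Set (Set K), P.Finite ∧ (∀ x, ∃ C ∈ P, x ∈ C) ∧
      ∀ C ∈ P, PM.Good g C) : FPB G :=
  PM.main_of PM.rowF row_act K G hG

end Vale.Agent.P192.H834
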