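import Mathlib

/-!
# P192: piecewise monotone bijections of linear orders: the action on the germs
-/

namespace Vale.Agent.P192.H834.Act

open Set Filter Topology

section germs

variable {K : Type}

/-- The germ at `u`: the right germ at `u` for `u < 1`, the left germ at `2 - u` for `1 ≤ u`. -/
noncomputable def W (F : K → ℝ) (u : ℝ) : Filter K :=
  if u < 1 then comap F (𝓝[>] u) else comap F (𝓝[<] (2 - u))

variable {F : K → ℝ}

theorem mem_W_lt {u : ℝ} (hu : u < 1) {S : Set K} :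
    S ∈ W F u ↔ ∃ c, u < c ∧ ∀ y, u < F y → F y < c → y ∈ S := by
  unfold W
  rw [if_pos hu, ((nhdsGT_basis u).comap F).mem_iff]
  constructor
  · rintro ⟨c, hc, h⟩
    exact ⟨c, hc, fun y h1 h2 => h ⟨h1, h2⟩⟩
  · rintro ⟨c, hc, h⟩
    exact ⟨c, hc, fun y hy => h y hy.1 hy.2⟩

theorem mem_W_ge {u : ℝ} (hu : 1 ≤ u) {S : Set K} :
    S ∈ W F u ↔ ∃ c, c < 2 - u ∧ ∀ y, c < F y → F y < 2 - u → y ∈ S := by
  unfold W
  rw [if_neg (not_lt.2 hu), ((nhdsLT_basis (2 - u)).comap F).mem_iff]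
  constructor
  · rintro ⟨c, hc, h⟩
    exact ⟨c, hc, fun y h1 h2 => h ⟨h1, h2⟩⟩
  · rintro ⟨c, hc, h⟩
    exact ⟨c, hc, fun y hy => h y hy.1 hy.2⟩

/-- the dense range hypothesis -/
def Dn (F : K → ℝ) : Prop := ∀ t, 0 ≤ t → t < 1 → ∀ ε > 0, ∃ y, t < F y ∧ F y < t + ε

theorem Dn.right (hd : Dn F) {u c : ℝ} (h0 : 0 ≤ u) (h1 : u < 1) (hc : u < c) :
    ∃ y, u < F y ∧ F y < c := by
  obtain ⟨y, h2, h3⟩ := hd u h0 h1 (c - u) (by linarith)
  exact ⟨y, h2, by linarith⟩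

theorem Dn.left (hd : Dn F) {t c : ℝ} (h0 : 0 < t) (h1 : t ≤ 1) (hc : c < t) :
    ∃ y, c < F y ∧ F y < t := by
  have h4 : max 0 c < t := max_lt h0 hc
  obtain ⟨y, h2, h3⟩ := hd (max 0 c) (le_max_left _ _) (by linarith) (t - max 0 c) (by linarith)
  exact ⟨y, lt_of_le_of_lt (le_max_right _ _) h2, by linarith⟩

theorem W_nonempty (hd : Dn F) {u : ℝ} (h0 : 0 ≤ u) (h2 : u < 2) {S : Set K} (hS : S ∈ W F u) :
    ∃ y, y ∈ S := by
  rcases lt_or_ge u 1 with hu | hu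
  · obtain ⟨c, hc, h⟩ := (mem_W_lt hu).1 hS
    obtain ⟨y, h3, h4⟩ := hd.right h0 hu hc
    exact ⟨y, h y h3 h4⟩
  · obtain ⟨c, hc, h⟩ := (mem_W_ge hu).1 hS
    obtain ⟨y, h3, h4⟩ := hd.left (t := 2 - u) (by linarith) (by linarith) hc
    exact ⟨y, h y h3 h4⟩

theorem W_neBot (hd : Dn F) {u : ℝ} (h0 : 0 ≤ u) (h2 : u < 2) : (W F u).NeBot := by
  rw [← forall_mem_nonempty_iff_neBot]
  intro S hS
  exact W_nonempty hd h0 h2 hS

/-- An order convex set which is met by every member of a germ is a member of the germ. -/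
theorem mem_of_meets [LinearOrder K] (hF : Monotone F) {u : ℝ} {S : Set K} (hS : S.OrdConnected)
    (h : ∀ T ∈ W F u, ∃ y ∈ T, y ∈ S) : S ∈ W F u := by
  rcases lt_or_ge u 1 with hu | hu
  · obtain ⟨y0, hy0, hy0S⟩ := h {y | u < F y}
      ((mem_W_lt hu).2 ⟨u + 1, by linarith, fun y h1 _ => h1⟩)
    rw [mem_W_lt hu]
    refine ⟨F y0, hy0, fun z h1 h2 => ?_⟩
    obtain ⟨y1, hy1, hy1S⟩ := h {y | F y < F z}
      ((mem_W_lt hu).2 ⟨F z, h1, fun y _ h3 => h3⟩)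
    exact hS.out hy1S hy0S ⟨(hF.reflect_lt hy1).le, (hF.reflect_lt h2).le⟩
  · obtain ⟨y0, hy0, hy0S⟩ := h {y | F y < 2 - u}
      ((mem_W_ge hu).2 ⟨2 - u - 1, by linarith, fun y _ h1 => h1⟩)
    rw [mem_W_ge hu]
    refine ⟨F y0, hy0, fun z h1 h2 => ?_⟩
    obtain ⟨y1, hy1, hy1S⟩ := h {y | F z < F y}
      ((mem_W_ge hu).2 ⟨F z, h2, fun y h3 _ => h3⟩)
    exact hS.out hy0S hy1S ⟨(hF.reflect_lt h1).le, (hF.reflect_lt hy1).le⟩

theorem W_disj {u v : ℝ} (huv : u < v) : ∃ S ∈ W F u, ∃ T ∈ W F v, ∀ y ∈ S, y ∉ T := by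
  rcases lt_or_ge u 1 with hu | hu
  · rcases lt_or_ge v 1 with hv | hv
    · refine ⟨{y | F y < v}, (mem_W_lt hu).2 ⟨v, huv, fun y _ h => h⟩, {y | v < F y},
        (mem_W_lt hv).2 ⟨v + 1, by linarith, fun y h _ => h⟩, ?_⟩
      intro y (h1 : F y < v) (h2 : v < F y)
      exact lt_asymm h1 h2
    · rcases lt_or_ge u (2 - v) with h | h
      · refine ⟨{y | F y < (u + (2 - v)) / 2},
          (mem_W_lt hu).2 ⟨(u + (2 - v)) / 2, by linarith, fun y _ h => h⟩,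
          {y | (u + (2 - v)) / 2 < F y},
          (mem_W_ge hv).2 ⟨(u + (2 - v)) / 2, by linarith, fun y h _ => h⟩, ?_⟩
        intro y (h1 : F y < (u + (2 - v)) / 2) (h2 : (u + (2 - v)) / 2 < F y)
        exact lt_asymm h1 h2
      · refine ⟨{y | u < F y}, (mem_W_lt hu).2 ⟨u + 1, by linarith, fun y h _ => h⟩,
          {y | F y < 2 - v}, (mem_W_ge hv).2 ⟨2 - v - 1, by linarith, fun y _ h => h⟩, ?_⟩
        intro y (h1 : u < F y) (h2 : F y < 2 - v)
        linarith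
  · have hv : 1 ≤ v := by linarith
    refine ⟨{y | 2 - v < F y}, (mem_W_ge hu).2 ⟨2 - v, by linarith, fun y h _ => h⟩,
      {y | F y < 2 - v}, (mem_W_ge hv).2 ⟨2 - v - 1, by linarith, fun y _ h => h⟩, ?_⟩
    intro y (h1 : 2 - v < F y) (h2 : F y < 2 - v)
    exact lt_asymm h1 h2

/-- `g` maps the germ at `u` into the germ at `v` -/
def Step (F : K → ℝ) (g : K → K) (u v : ℝ) : Prop := ∀ S ∈ W F v, g ⁻¹' S ∈ W F u

theorem Step.comp {g h : K → K} {u v w : ℝ} (h1 : Step F h u v) (h2 : Step F g v w) :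
    Step F (fun x => g (h x)) u w := fun S hS => h1 _ (h2 S hS)

theorem Step.unique (hd : Dn F) {g : K → K} {u v w : ℝ} (h0 : 0 ≤ u) (h2 : u < 2)
    (hv : Step F g u v) (hw : Step F g u w) : v = w := by
  have key : ∀ v w, Step F g u v → Step F g u w → ¬ v < w := by
    intro v w hv hw hlt
    obtain ⟨S, hS, T, hT, hST⟩ := W_disj (F := F) hlt
    obtain ⟨y, hy⟩ := W_nonempty hd h0 h2 (inter_mem (hv S hS) (hw T hT))
    exact hST _ hy.1 hy.2
  exact le_antisymm (not_lt.1 (key w v hw hv)) (not_lt.1 (key v w hv hw))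

end germs

section steps

variable {K : Type} {F : K → ℝ} (h0 : ∀ x, 0 ≤ F x ∧ F x ≤ 1) (hd : Dn F)

include h0 hd

theorem step_mono_lt {g : K → K} {C : Set K} {τ u : ℝ} (hτ : ∀ y ∈ C, F (g y) = F y + τ)
    (hu0 : 0 ≤ u) (hu : u < 1) (hC : C ∈ W F u) :
    0 ≤ u + τ ∧ u + τ < 1 ∧ Step F g u (u + τ) := by
  obtain ⟨c, hc, h⟩ := (mem_W_lt hu).1 hC
  have h1 : u + τ < 1 := by
    obtain ⟨y, h3, h4⟩ := hd.right hu0 hu hc
    have h5 := (h0 (g y)).2
    rw [hτ y (h y h3 h4)] at h5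
    linarith
  have h2 : 0 ≤ u + τ := by
    by_contra hne
    push Not at hne
    obtain ⟨y, h3, h4⟩ := hd.right hu0 hu (c := min c (-τ)) (lt_min hc (by linarith))
    have h5 := (h0 (g y)).1
    have h6 := h4.trans_le (min_le_left _ _)
    have h7 := h4.trans_le (min_le_right _ _)
    rw [hτ y (h y h3 h6)] at h5
    linarith
  refine ⟨h2, h1, fun S hS => ?_⟩
  obtain ⟨d, hd1, h3⟩ := (mem_W_lt h1).1 hS
  rw [mem_W_lt hu]
  refine ⟨min c (d - τ), lt_min hc (by linarith), fun y h4 h5 => ?_⟩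
  have h6 := h5.trans_le (min_le_left _ _)
  have h7 := h5.trans_le (min_le_right _ _)
  have h8 := hτ y (h y h4 h6)
  exact h3 (g y) (by rw [h8]; linarith) (by rw [h8]; linarith)

theorem step_mono_ge {g : K → K} {C : Set K} {τ u : ℝ} (hτ : ∀ y ∈ C, F (g y) = F y + τ)
    (hu : 1 ≤ u) (hu2 : u < 2) (hC : C ∈ W F u) :
    1 ≤ u - τ ∧ u - τ < 2 ∧ Step F g u (u - τ) := by
  obtain ⟨c, hc, h⟩ := (mem_W_ge hu).1 hC
  have h1 : u - τ < 2 := by
    obtain ⟨y, h3, h4⟩ := hd.left (t := 2 - u) (by linarith) (by linarith) hc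
    have h5 := (h0 (g y)).1
    rw [hτ y (h y h3 h4)] at h5
    linarith
  have h2 : 1 ≤ u - τ := by
    by_contra hne
    push Not at hne
    obtain ⟨y, h3, h4⟩ := hd.left (t := 2 - u) (by linarith) (by linarith) (c := max c (1 - τ))
      (max_lt hc (by linarith))
    have h5 := (h0 (g y)).2
    have h6 := (le_max_left _ _).trans_lt h3
    have h7 := (le_max_right _ _).trans_lt h3
    rw [hτ y (h y h6 h4)] at h5
    linarith
  refine ⟨h2, h1, fun S hS => ?_⟩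
  obtain ⟨d, hd1, h3⟩ := (mem_W_ge h2).1 hS
  rw [mem_W_ge hu]
  refine ⟨max c (d - τ), max_lt hc (by linarith), fun y h4 h5 => ?_⟩
  have h6 := (le_max_left _ _).trans_lt h4
  have h7 := (le_max_right _ _).trans_lt h4
  have h8 := hτ y (h y h6 h5)
  exact h3 (g y) (by rw [h8]; linarith) (by rw [h8]; linarith)

theorem step_anti_lt {g : K → K} {C : Set K} {κ u : ℝ} (hκ : ∀ y ∈ C, F (g y) = κ - F y)
    (hu0 : 0 ≤ u) (hu : u < 1) (hC : C ∈ W F u) :
    1 ≤ u + (2 - κ) ∧ u + (2 - κ) < 2 ∧ Step F g u (u + (2 - κ)) := by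
  obtain ⟨c, hc, h⟩ := (mem_W_lt hu).1 hC
  have h1 : u + (2 - κ) < 2 := by
    obtain ⟨y, h3, h4⟩ := hd.right hu0 hu hc
    have h5 := (h0 (g y)).1
    rw [hκ y (h y h3 h4)] at h5
    linarith
  have h2 : 1 ≤ u + (2 - κ) := by
    by_contra hne
    push Not at hne
    obtain ⟨y, h3, h4⟩ := hd.right hu0 hu (c := min c (κ - 1)) (lt_min hc (by linarith))
    have h5 := (h0 (g y)).2
    have h6 := h4.trans_le (min_le_left _ _)
    have h7 := h4.trans_le (min_le_right _ _)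
    rw [hκ y (h y h3 h6)] at h5
    linarith
  refine ⟨h2, h1, fun S hS => ?_⟩
  obtain ⟨d, hd1, h3⟩ := (mem_W_ge h2).1 hS
  rw [mem_W_lt hu]
  refine ⟨min c (κ - d), lt_min hc (by linarith), fun y h4 h5 => ?_⟩
  have h6 := h5.trans_le (min_le_left _ _)
  have h7 := h5.trans_le (min_le_right _ _)
  have h8 := hκ y (h y h4 h6)
  exact h3 (g y) (by rw [h8]; linarith) (by rw [h8]; linarith)

theorem step_anti_ge {g : K → K} {C : Set K} {κ u : ℝ} (hκ : ∀ y ∈ C, F (g y) = κ - F y)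
    (hu : 1 ≤ u) (hu2 : u < 2) (hC : C ∈ W F u) :
    0 ≤ u - (2 - κ) ∧ u - (2 - κ) < 1 ∧ Step F g u (u - (2 - κ)) := by
  obtain ⟨c, hc, h⟩ := (mem_W_ge hu).1 hC
  have h1 : u - (2 - κ) < 1 := by
    obtain ⟨y, h3, h4⟩ := hd.left (t := 2 - u) (by linarith) (by linarith) hc
    have h5 := (h0 (g y)).2
    rw [hκ y (h y h3 h4)] at h5
    linarith
  have h2 : 0 ≤ u - (2 - κ) := by
    by_contra hne
    push Not at hne
    obtain ⟨y, h3, h4⟩ := hd.left (t := 2 - u) (by linarith) (by linarith) (c := max c κ)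
      (max_lt hc (by linarith))
    have h5 := (h0 (g y)).1
    have h6 := (le_max_left _ _).trans_lt h3
    have h7 := (le_max_right _ _).trans_lt h3
    rw [hκ y (h y h6 h4)] at h5
    linarith
  refine ⟨h2, h1, fun S hS => ?_⟩
  obtain ⟨d, hd1, h3⟩ := (mem_W_lt h1).1 hS
  rw [mem_W_ge hu]
  refine ⟨max c (κ - d), max_lt hc (by linarith), fun y h4 h5 => ?_⟩
  have h6 := (le_max_left _ _).trans_lt h4
  have h7 := (le_max_right _ _).trans_lt h4
  have h8 := hκ y (h y h6 h5)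
  exact h3 (g y) (by rw [h8]; linarith) (by rw [h8]; linarith)

omit h0

/-- one of finitely many convex sets which cover `K` is a member of the germ -/
theorem exists_piece [LinearOrder K] (hF : Monotone F) {P : Set (Set K)} (hP : P.Finite) (hcov : ∀ x, ∃ C ∈ P, x ∈ C)
    (hord : ∀ C ∈ P, C.OrdConnected) {u : ℝ} (hu0 : 0 ≤ u) (hu2 : u < 2) :
    ∃ C ∈ P, C ∈ W F u := by
  by_contra hne
  push Not at hne
  have h1 : ∀ C ∈ P, ∃ T ∈ W F u, ∀ y ∈ T, y ∉ C := by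
    intro C hC
    by_contra h2
    push Not at h2
    exact hne C hC (mem_of_meets hF (hord C hC) h2)
  choose! T hT hTC using h1
  have h2 : (⋂ C ∈ P, T C) ∈ W F u := (biInter_mem hP).2 hT
  obtain ⟨y, hy⟩ := W_nonempty hd hu0 hu2 h2
  obtain ⟨C, hC, hyC⟩ := hcov y
  exact hTC C hC y (mem_iInter₂.1 hy C hC) hyC

end steps

end Vale.Agent.P192.H834.Act
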