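import Vale.Agent.P192.H834.Act

/-!
# P192: piecewise monotone bijections of linear orders: the action on the germs by translations
-/

namespace Vale.Agent.P192.H834.Act

open Set Filter Topology

section piece

variable {K : Type} {F : K → ℝ} (h0 : ∀ x, 0 ≤ F x ∧ F x ≤ 1) (hd : Dn F)

include h0 hd

theorem same_piece [LinearOrder K] (hF : Monotone F) {C : Set K} (hC : C.OrdConnected) {u v : ℝ}
    (hu0 : 0 ≤ u) (huv : u < v) (hv : v < 2) (h1 : ¬ (u < 1 ∧ 1 ≤ v))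
    (h2 : ¬ (u < sSup (F '' C) ∧ sSup (F '' C) ≤ v))
    (h3 : ¬ (u < 2 - sInf (F '' C) ∧ 2 - sInf (F '' C) ≤ v)) (hCu : C ∈ W F u) : C ∈ W F v := by
  rcases lt_or_ge u 1 with hu | hu
  · have hv1 : v < 1 := by
      by_contra hne
      exact h1 ⟨hu, not_lt.1 hne⟩
    obtain ⟨c, hc, h⟩ := (mem_W_lt hu).1 hCu
    obtain ⟨y0, hy1, hy2⟩ := hd.right hu0 hu hc
    have hy0 : y0 ∈ C := h y0 hy1 hy2
    have hbdd : BddAbove (F '' C) := ⟨1, by rintro _ ⟨y, _, rfl⟩; exact (h0 y).2⟩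
    have h4 : F y0 ≤ sSup (F '' C) := le_csSup hbdd ⟨y0, hy0, rfl⟩
    have h5 : v < sSup (F '' C) := by
      by_contra hne
      exact h2 ⟨by linarith, not_lt.1 hne⟩
    obtain ⟨_, ⟨y1, hy1, rfl⟩, h6⟩ := exists_lt_of_lt_csSup (Set.Nonempty.image F ⟨y0, hy0⟩) h5
    rw [mem_W_lt hv1]
    refine ⟨F y1, h6, fun z h7 h8 => ?_⟩
    obtain ⟨y2, h9, h10⟩ := hd.right hu0 hu (c := min c (F z)) (lt_min hc (by linarith))
    have hy2C : y2 ∈ C := h y2 h9 (h10.trans_le (min_le_left _ _))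
    exact hC.out hy2C hy1 ⟨(hF.reflect_lt (h10.trans_le (min_le_right _ _))).le,
      (hF.reflect_lt h8).le⟩
  · have hv1 : 1 ≤ v := by linarith
    obtain ⟨c, hc, h⟩ := (mem_W_ge hu).1 hCu
    obtain ⟨y0, hy1, hy2⟩ := hd.left (t := 2 - u) (by linarith) (by linarith) hc
    have hy0 : y0 ∈ C := h y0 hy1 hy2
    have hbdd : BddBelow (F '' C) := ⟨0, by rintro _ ⟨y, _, rfl⟩; exact (h0 y).1⟩
    have h4 : sInf (F '' C) ≤ F y0 := csInf_le hbdd ⟨y0, hy0, rfl⟩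
    have h5 : sInf (F '' C) < 2 - v := by
      by_contra hne
      exact h3 ⟨by linarith, by linarith [not_lt.1 hne]⟩
    obtain ⟨_, ⟨y1, hy1, rfl⟩, h6⟩ := exists_lt_of_csInf_lt (Set.Nonempty.image F ⟨y0, hy0⟩) h5
    rw [mem_W_ge hv1]
    refine ⟨F y1, h6, fun z h7 h8 => ?_⟩
    obtain ⟨y2, h9, h10⟩ := hd.left (t := 2 - u) (by linarith) (by linarith) (c := max c (F z))
      (max_lt hc (by linarith))
    have hy2C : y2 ∈ C := h y2 ((le_max_left _ _).trans_lt h9) h10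
    exact hC.out hy1 hy2C ⟨(hF.reflect_lt h7).le,
      (hF.reflect_lt ((le_max_right _ _).trans_lt h9)).le⟩

theorem piece_step {g : K → K} {C : Set K}
    (hg : (∃ τ, ∀ y ∈ C, F (g y) = F y + τ) ∨ ∃ κ, ∀ y ∈ C, F (g y) = κ - F y) :
    ∃ s t : ℝ, ∀ u, C ∈ W F u → (0 ≤ u → u < 1 → 0 ≤ u + s ∧ u + s < 2 ∧ Step F g u (u + s)) ∧
      (1 ≤ u → u < 2 → 0 ≤ u + t ∧ u + t < 2 ∧ Step F g u (u + t)) := by
  rcases hg with ⟨τ, hτ⟩ | ⟨κ, hκ⟩
  · refine ⟨τ, -τ, fun u hu => ⟨fun h1 h2 => ?_, fun h1 h2 => ?_⟩⟩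
    · obtain ⟨h3, h4, h5⟩ := step_mono_lt h0 hd hτ h1 h2 hu
      exact ⟨h3, by linarith, h5⟩
    · obtain ⟨h3, h4, h5⟩ := step_mono_ge h0 hd hτ h1 h2 hu
      rw [← sub_eq_add_neg]
      exact ⟨by linarith, h4, h5⟩
  · refine ⟨2 - κ, -(2 - κ), fun u hu => ⟨fun h1 h2 => ?_, fun h1 h2 => ?_⟩⟩
    · obtain ⟨h3, h4, h5⟩ := step_anti_lt h0 hd hκ h1 h2 hu
      exact ⟨by linarith, h4, h5⟩
    · obtain ⟨h3, h4, h5⟩ := step_anti_ge h0 hd hκ h1 h2 hu
      rw [← sub_eq_add_neg]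
      exact ⟨h3, by linarith, h5⟩

end piece

/-- a group acts piecewise isometrically through the function `F` -/
structure Dat (Γ : Type) {K : Type} [Group Γ] [LinearOrder K] [MulAction Γ K] (F : K → ℝ) :
    Prop where
  mono : Monotone F
  bd : ∀ x, 0 ≤ F x ∧ F x ≤ 1
  dn : Dn F
  pm : ∀ g : Γ, ∃ P : Set (Set K), P.Finite ∧ (∀ x, ∃ C ∈ P, x ∈ C) ∧ ∀ C ∈ P,
    C.OrdConnected ∧ ((∃ τ, ∀ y ∈ C, F (g • y) = F y + τ) ∨ ∃ κ, ∀ y ∈ C, F (g • y) = κ - F y)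

section hat

variable {Γ K : Type} [Group Γ] [LinearOrder K] [MulAction Γ K] {F : K → ℝ}

theorem Dat.ex (D : Dat Γ F) (g : Γ) {u : ℝ} (hu : 0 ≤ u ∧ u < 2) :
    ∃ v, (0 ≤ v ∧ v < 2) ∧ Step F (fun y => g • y) u v := by
  obtain ⟨P, hP, hcov, hC⟩ := D.pm g
  obtain ⟨C, hCP, hCu⟩ := exists_piece D.dn D.mono hP hcov (fun C h => (hC C h).1) hu.1 hu.2
  obtain ⟨s, t, h⟩ := piece_step D.bd D.dn (g := fun y => g • y) (hC C hCP).2
  rcases lt_or_ge u 1 with h1 | h1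
  · obtain ⟨h2, h3, h4⟩ := (h u hCu).1 hu.1 h1
    exact ⟨_, ⟨h2, h3⟩, h4⟩
  · obtain ⟨h2, h3, h4⟩ := (h u hCu).2 h1 hu.2
    exact ⟨_, ⟨h2, h3⟩, h4⟩

theorem Dat.const (D : Dat Γ F) (g : Γ) : ∃ B : Finset ℝ, ∀ u v, 0 ≤ u → u < v → v < 2 →
    (∀ b ∈ B, ¬ (u < b ∧ b ≤ v)) → ∃ u' v', Step F (fun y => g • y) u u' ∧
      Step F (fun y => g • y) v v' ∧ v' - u' = v - u := by
  classical
  obtain ⟨P, hP, hcov, hC⟩ := D.pm g
  refine ⟨{1} ∪ (hP.toFinset.image fun C => sSup (F '' C)) ∪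
    (hP.toFinset.image fun C => 2 - sInf (F '' C)), fun u v hu0 huv hv hB => ?_⟩
  obtain ⟨C, hCP, hCu⟩ := exists_piece D.dn D.mono hP hcov (fun C h => (hC C h).1) hu0
    (huv.trans hv)
  obtain ⟨s, t, h⟩ := piece_step D.bd D.dn (g := fun y => g • y) (hC C hCP).2
  have h1 : ¬ (u < 1 ∧ 1 ≤ v) := hB 1 (by simp)
  have h2 : ¬ (u < sSup (F '' C) ∧ sSup (F '' C) ≤ v) := hB _ (by
    refine Finset.mem_union_left _ (Finset.mem_union_right _ ?_)
    exact Finset.mem_image_of_mem _ (hP.mem_toFinset.2 hCP))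
  have h3 : ¬ (u < 2 - sInf (F '' C) ∧ 2 - sInf (F '' C) ≤ v) := hB _ (by
    refine Finset.mem_union_right _ ?_
    exact Finset.mem_image_of_mem (fun C => 2 - sInf (F '' C)) (hP.mem_toFinset.2 hCP))
  have hCv := same_piece D.bd D.dn D.mono (hC C hCP).1 hu0 huv hv h1 h2 h3 hCu
  rcases lt_or_ge u 1 with h4 | h4
  · have h5 : v < 1 := by
      by_contra hne
      exact h1 ⟨h4, not_lt.1 hne⟩
    obtain ⟨-, -, h6⟩ := (h u hCu).1 hu0 h4
    obtain ⟨-, -, h7⟩ := (h v hCv).1 (by linarith) h5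
    exact ⟨_, _, h6, h7, by ring⟩
  · obtain ⟨-, -, h6⟩ := (h u hCu).2 h4 (by linarith)
    obtain ⟨-, -, h7⟩ := (h v hCv).2 (by linarith) hv
    exact ⟨_, _, h6, h7, by ring⟩

open Classical in
/-- the action on the germs, as functions -/
noncomputable def hatF (D : Dat Γ F) (g : Γ) : Function.End ℝ := fun u =>
  if h : 0 ≤ u ∧ u < 2 then Classical.choose (D.ex g h) else u

theorem hatF_out (D : Dat Γ F) (g : Γ) {u : ℝ} (h : ¬ (0 ≤ u ∧ u < 2)) : hatF D g u = u := by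
  unfold hatF
  exact dif_neg h

theorem hatF_spec (D : Dat Γ F) (g : Γ) {u : ℝ} (h : 0 ≤ u ∧ u < 2) :
    (0 ≤ hatF D g u ∧ hatF D g u < 2) ∧ Step F (fun y => g • y) u (hatF D g u) := by
  have e : hatF D g u = Classical.choose (D.ex g h) := by
    unfold hatF
    exact dif_pos h
  rw [e]
  exact Classical.choose_spec (D.ex g h)

theorem hatF_eq (D : Dat Γ F) (g : Γ) {u v : ℝ} (h : 0 ≤ u ∧ u < 2)
    (hv : Step F (fun y => g • y) u v) : hatF D g u = v :=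
  Step.unique D.dn h.1 h.2 (hatF_spec D g h).2 hv

/-- the action on the germs -/
noncomputable def hat (D : Dat Γ F) : Γ →* Equiv.Perm ℝ :=
  MonoidHom.toHomPerm
    { toFun := hatF D
      map_one' := by
        funext u
        by_cases h : 0 ≤ u ∧ u < 2
        · refine hatF_eq D 1 h ?_
          intro S hS
          have e : (fun y : K => (1 : Γ) • y) = id := by
            funext y
            exact one_smul Γ y
          rw [e]
          exact hS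
        · exact hatF_out D 1 h
      map_mul' := by
        intro a b
        funext u
        change hatF D (a * b) u = hatF D a (hatF D b u)
        by_cases h : 0 ≤ u ∧ u < 2
        · obtain ⟨h1, h2⟩ := hatF_spec D b h
          obtain ⟨-, h3⟩ := hatF_spec D a h1
          refine hatF_eq D _ h ?_
          have e : (fun y : K => (a * b) • y) = fun y => a • b • y := by
            funext y
            exact mul_smul a b y
          rw [e]
          exact h2.comp h3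
        · rw [hatF_out D _ h, hatF_out D _ h, hatF_out D _ h] }

theorem hat_apply (D : Dat Γ F) (g : Γ) (u : ℝ) : hat D g u = hatF D g u := rfl

/-- Two group elements with the same action on the germs do not separate a nondegenerate
interval. -/
theorem not_disjoint (D : Dat Γ F) {g h : Γ} (e : hat D g = hat D h) {J : Set K}
    (hJ : J.OrdConnected) (hab : ∃ a ∈ J, ∃ b ∈ J, F a < F b)
    (hg : ((fun y => g • y) '' J).OrdConnected) (hh : ((fun y => h • y) '' J).OrdConnected) :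
    ¬ Disjoint ((fun y => g • y) '' J) ((fun y => h • y) '' J) := by
  obtain ⟨a, ha, b, hb, hab⟩ := hab
  have hu0 : 0 ≤ F a := (D.bd a).1
  have hu1 : F a < 1 := hab.trans_le (D.bd b).2
  have hu : 0 ≤ F a ∧ F a < 2 := ⟨hu0, by linarith⟩
  have hJW : J ∈ W F (F a) := by
    rw [mem_W_lt hu1]
    exact ⟨F b, hab, fun y h1 h2 =>
      hJ.out ha hb ⟨(D.mono.reflect_lt h1).le, (D.mono.reflect_lt h2).le⟩⟩
  have key : ∀ k : Γ, ((fun y => k • y) '' J).OrdConnected →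
      (fun y => k • y) '' J ∈ W F (hat D k (F a)) := by
    intro k hk
    refine mem_of_meets D.mono hk ?_
    intro T hT
    have h1 := (hatF_spec D k hu).2 T hT
    obtain ⟨y, hy⟩ := W_nonempty D.dn hu.1 hu.2 (inter_mem h1 hJW)
    exact ⟨k • y, hy.1, y, hy.2, rfl⟩
  have h1 := key g hg
  have h2 := key h hh
  rw [← e] at h2
  obtain ⟨h3, -⟩ := hatF_spec D g hu
  obtain ⟨y, hy⟩ := W_nonempty D.dn h3.1 h3.2 (inter_mem h1 h2)
  intro hdis
  exact Set.disjoint_left.1 hdis hy.1 hy.2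

end hat

end Vale.Agent.P192.H834.Act
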