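import Vale.Agent.P192.H834.Act2
import Vale.Agent.P192.H826.Iet4

/-!
# P192: piecewise monotone bijections of linear orders: finiteness of the action on the germs
-/

namespace Vale.Agent.P192.H834.Act

open Set Filter Topology

variable {Γ K : Type} [Group Γ] [LinearOrder K] [MulAction Γ K] {F : K → ℝ}

theorem finite_hat (hΓ : Group.IsFinitelyPresented Γ) (ht : ∀ x : Γ, IsOfFinOrder x)
    (D : Dat Γ F) : Finite (hat D).range := by
  refine Iet.core Γ ht 2 (hat D) ?_ ?_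
  · intro g x hx
    rw [hat_apply]
    exact hatF_out D g fun h => hx ⟨h.1, h.2⟩
  · intro g
    obtain ⟨B, hB⟩ := D.const g
    refine ⟨B, fun x y hx hxy hy hb => ?_⟩
    obtain ⟨u, v, hu, hv, huv⟩ := hB x y hx hxy hy hb
    rw [hat_apply, hat_apply, hatF_eq D g ⟨hx, hxy.trans hy⟩ hu,
      hatF_eq D g ⟨hx.trans hxy.le, hy⟩ hv, huv]

/-- **Row ACT**, in terms of the data. -/
theorem act (hΓ : Group.IsFinitelyPresented Γ) (ht : ∀ x : Γ, IsOfFinOrder x) (D : Dat Γ F) :
    ∃ n : ℕ, ∀ γ : Fin (n + 1) → Γ, ∃ i j, i ≠ j ∧ ∀ J : Set K, J.OrdConnected →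
      (∃ a ∈ J, ∃ b ∈ J, F a < F b) → ((fun y => γ i • y) '' J).OrdConnected →
      ((fun y => γ j • y) '' J).OrdConnected →
      ¬ Disjoint ((fun y => γ i • y) '' J) ((fun y => γ j • y) '' J) := by
  have := finite_hat hΓ ht D
  let _ := Fintype.ofFinite (hat D).range
  refine ⟨Fintype.card (hat D).range, fun γ => ?_⟩
  obtain ⟨i, j, hij, h⟩ := Fintype.exists_ne_map_eq_of_card_lt
    (fun i => (⟨hat D (γ i), γ i, rfl⟩ : (hat D).range)) (by simp)
  refine ⟨i, j, hij, fun J hJ hab hi hj => ?_⟩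
  exact not_disjoint D (Subtype.ext_iff.1 h) hJ hab hi hj

end Vale.Agent.P192.H834.Act
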