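import Vale.Agent.P192.H834.Act3
import Vale.Agent.P192.H124.PMMain

/-!
# P192: piecewise monotone bijections of linear orders: row ACT
-/

namespace Vale.Agent.P192.H834

open Act

/-- **Row ACT.** -/
theorem row_act : PM.RowAct := by
  intro Γ K _ _ _ hΓ ht hpm F hF h0 hd hmono hanti
  have D : Dat Γ F := by
    refine ⟨hF, h0, hd, fun g => ?_⟩
    obtain ⟨P, hP, hcov, hC⟩ := hpm g
    refine ⟨P, hP, hcov, fun C hCP => ⟨(hC C hCP).1, ?_⟩⟩
    rcases (hC C hCP).2.2 with h | h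
    · exact Or.inl (hmono g C (hC C hCP) h)
    · exact Or.inr (hanti g C (hC C hCP) h)
  obtain ⟨n, hn⟩ := act hΓ ht D
  refine ⟨n, fun γ => ?_⟩
  obtain ⟨i, j, hij, h⟩ := hn γ
  exact ⟨i, j, hij, fun J hab hi hj => h J hi.1 hab hi.2.1 hj.2.1⟩

end Vale.Agent.P192.H834
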