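import Vale.Agent.P192.H663.Calc

/-!
# P192: from interval exchange transformations to piecewise isometries of the line

One-sided germs: a piecewise isometry acts on the doubled line `ℝ × Bool` (germ to the right or to
the left of a point), there without flips.
-/

open Filter Topology Set

namespace Vale.Agent.P192.H834

/-- The theorem for interval exchange transformations of `[0, L)`. -/
def CoreIET : Prop :=
  ∀ (G : Type) [Group G] [Group.IsFinitelyPresented G], IsMulTorsion G →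
    ∀ (L : ℝ) (ρ : G →* Equiv.Perm ℝ), (∀ g x, x ∉ Set.Ico 0 L → ρ g x = x) →
      (∀ g, ∃ B : Finset ℝ, ∀ x y, 0 ≤ x → x < y → y < L → (∀ b ∈ B, ¬ (x < b ∧ b ≤ y)) →
        ρ g y - ρ g x = y - x) → Finite ρ.range

/-- `k` is an isometry between the points of `B`. -/
def PIB (k : ℝ → ℝ) (B : Finset ℝ) : Prop :=
  ∀ x y, (∀ b ∈ B, b ∉ Set.uIcc x y) → |k x - k y| = |x - y|

/-- The sign of a side. -/
def sg (e : Bool) : ℝ := if e then 1 else -1

@[simp] theorem sg_true : sg true = 1 := rfl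
@[simp] theorem sg_false : sg false = -1 := rfl

theorem sg_sq (e : Bool) : sg e * sg e = 1 := by cases e <;> simp

theorem sg_beq (s e : Bool) : sg s * sg e = sg (s == e) := by cases s <;> cases e <;> simp

theorem sg_inj {e e' : Bool} (h : sg e = sg e') : e = e' := by
  cases e <;> cases e' <;> simp at h ⊢ <;> norm_num at h

/-! ### isometries are affine -/

theorem aff_of_isom {k : ℝ → ℝ} {I : Set ℝ} (hI : ∀ x ∈ I, ∀ y ∈ I, |k x - k y| = |x - y|) :
    ∃ (s : Bool) (c : ℝ), ∀ x ∈ I, k x = c + sg s * x := by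
  by_cases h : ∃ p ∈ I, ∃ q ∈ I, p ≠ q
  · obtain ⟨p, hp, q, hq, hpq⟩ := h
    rcases abs_eq_abs.1 (hI p hp q hq) with h1 | h1
    · refine ⟨true, k p - p, fun x hx => ?_⟩
      rw [sg_true]
      rcases abs_eq_abs.1 (hI x hx p hp) with h2 | h2
      · linarith
      · rcases abs_eq_abs.1 (hI x hx q hq) with h3 | h3
        · linarith
        · exact absurd (by linarith : p = q) hpq
    · refine ⟨false, k p + p, fun x hx => ?_⟩
      rw [sg_false]
      rcases abs_eq_abs.1 (hI x hx p hp) with h2 | h2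
      · rcases abs_eq_abs.1 (hI x hx q hq) with h3 | h3
        · exact absurd (by linarith : p = q) hpq
        · linarith
      · linarith
  · push Not at h
    by_cases hn : I.Nonempty
    · obtain ⟨p, hp⟩ := hn
      refine ⟨true, k p - p, fun x hx => ?_⟩
      rw [h x hx p hp, sg_true]
      ring
    · exact ⟨true, 0, fun x hx => absurd ⟨x, hx⟩ hn⟩

theorem aff_Ioo {k : ℝ → ℝ} {B : Finset ℝ} (h : PIB k B) {a b : ℝ}
    (hB : ∀ t ∈ B, ¬ (a < t ∧ t < b)) :
    ∃ (s : Bool) (c : ℝ), ∀ x, a < x → x < b → k x = c + sg s * x := by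
  obtain ⟨s, c, hc⟩ := aff_of_isom (k := k) (I := Ioo a b) (fun x hx y hy => h x y (by
    intro t ht htm
    have h1 := (ordConnected_Ioo (a := a) (b := b)).uIcc_subset hx hy htm
    exact hB t ht h1))
  exact ⟨s, c, fun x h1 h2 => hc x ⟨h1, h2⟩⟩

theorem exists_gap (B : Finset ℝ) (x : ℝ) : ∃ δ : ℝ, 0 < δ ∧ ∀ b ∈ B, b ≠ x → δ ≤ |b - x| := by
  classical
  induction B using Finset.induction_on with
  | empty => exact ⟨1, one_pos, fun p hp => absurd hp (Finset.notMem_empty p)⟩
  | insert a s ha ih =>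
    obtain ⟨δ, h0, h1⟩ := ih
    by_cases h : a = x
    · refine ⟨δ, h0, fun p hp hp0 => ?_⟩
      rcases Finset.mem_insert.1 hp with rfl | hp
      · exact absurd h hp0
      · exact h1 p hp hp0
    · refine ⟨min δ |a - x|, lt_min h0 (abs_pos.2 (sub_ne_zero.2 h)), fun p hp hp0 => ?_⟩
      rcases Finset.mem_insert.1 hp with rfl | hp
      · exact min_le_right _ _
      · exact (min_le_left _ _).trans (h1 p hp hp0)

/-! ### germs -/

/-- `k` carries the germ `p` to the germ `q`. -/
def Germ (k : ℝ → ℝ) (p q : ℝ × Bool) : Prop :=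
  ∀ᶠ t in 𝓝[>] (0 : ℝ), k (p.1 + sg p.2 * t) = q.1 + sg q.2 * t

theorem ev_lt {δ : ℝ} (hδ : 0 < δ) : ∀ᶠ t in 𝓝[>] (0 : ℝ), 0 < t ∧ t < δ := by
  have := Ioo_mem_nhdsGT hδ
  filter_upwards [this] with t ht
  exact ht

theorem germ_right {k : ℝ → ℝ} {a b c x : ℝ} {s : Bool}
    (h : ∀ w, a < w → w < b → k w = c + sg s * w) (h1 : a ≤ x) (h2 : x < b) :
    Germ k (x, true) (c + sg s * x, s) := by
  filter_upwards [ev_lt (sub_pos.2 h2)] with t ht
  simp only [sg_true, one_mul]
  rw [h _ (by linarith [ht.1]) (by linarith [ht.2])]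
  ring

theorem germ_left {k : ℝ → ℝ} {a b c x : ℝ} {s : Bool}
    (h : ∀ w, a < w → w < b → k w = c + sg s * w) (h1 : a < x) (h2 : x ≤ b) :
    Germ k (x, false) (c + sg s * x, !s) := by
  filter_upwards [ev_lt (sub_pos.2 h1)] with t ht
  simp only [sg_false]
  rw [h _ (by linarith [ht.2]) (by linarith [ht.1])]
  cases s <;> simp <;> ring

theorem germ_exists {k : ℝ → ℝ} {B : Finset ℝ} (h : PIB k B) (p : ℝ × Bool) :
    ∃ q, Germ k p q := by
  obtain ⟨x, e⟩ := p
  obtain ⟨δ, h0, h1⟩ := exists_gap B x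
  cases e
  · obtain ⟨s, c, hc⟩ := aff_Ioo h (a := x - δ) (b := x) (by
      rintro t ht ⟨h2, h3⟩
      have := h1 t ht h3.ne
      rw [abs_of_neg (by linarith)] at this
      linarith)
    exact ⟨_, germ_left hc (by linarith) le_rfl⟩
  · obtain ⟨s, c, hc⟩ := aff_Ioo h (a := x) (b := x + δ) (by
      rintro t ht ⟨h2, h3⟩
      have := h1 t ht h2.ne'
      rw [abs_of_pos (by linarith)] at this
      linarith)
    exact ⟨_, germ_right hc le_rfl (by linarith)⟩

theorem germ_unique {k : ℝ → ℝ} {p q q' : ℝ × Bool} (h : Germ k p q) (h' : Germ k p q') :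
    q = q' := by
  have he : ∀ᶠ t in 𝓝[>] (0 : ℝ), q.1 + sg q.2 * t = q'.1 + sg q'.2 * t := by
    filter_upwards [h, h'] with t h1 h2
    rw [← h1, ← h2]
  have hl : ∀ r : ℝ × Bool, Tendsto (fun t : ℝ => r.1 + sg r.2 * t) (𝓝[>] (0 : ℝ)) (𝓝 r.1) := by
    intro r
    have : Tendsto (fun t : ℝ => r.1 + sg r.2 * t) (𝓝 (0 : ℝ)) (𝓝 (r.1 + sg r.2 * 0)) :=
      (by fun_prop : Continuous fun t : ℝ => r.1 + sg r.2 * t).tendsto 0
    rw [mul_zero, add_zero] at this
    exact this.mono_left nhdsWithin_le_nhds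
  have e1 : q.1 = q'.1 := tendsto_nhds_unique_of_eventuallyEq (hl q) (hl q') he
  obtain ⟨t, ht1, ht2⟩ := (he.and (ev_lt one_pos)).exists
  rw [e1] at ht1
  have e2 : sg q.2 = sg q'.2 := mul_right_cancel₀ ht2.1.ne' (add_left_cancel ht1)
  exact Prod.ext e1 (sg_inj e2)

theorem germ_comp {k k' : ℝ → ℝ} {p q r : ℝ × Bool} (h : Germ k p q) (h' : Germ k' q r) :
    Germ (fun x => k' (k x)) p r := by
  filter_upwards [h, h'] with t h1 h2
  rw [h1, h2]

/-! ### the action on germs -/

section hat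

variable (K : Subgroup (Equiv.Perm ℝ)) (hK : ∀ k ∈ K, ∃ B : Finset ℝ, PIB k B)

/-- The action on germs, as functions. -/
noncomputable def hatF (k : K) : Function.End (ℝ × Bool) := fun p =>
  Classical.choose (germ_exists (Classical.choose_spec (hK k.1 k.2)) p)

theorem germ_hatF (k : K) (p : ℝ × Bool) : Germ (k : Equiv.Perm ℝ) p (hatF K hK k p) :=
  Classical.choose_spec (germ_exists (Classical.choose_spec (hK k.1 k.2)) p)

/-- The action on germs. -/
noncomputable def hat : K →* Equiv.Perm (ℝ × Bool) :=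
  MonoidHom.toHomPerm
    { toFun := hatF K hK
      map_one' := by
        funext p
        refine germ_unique (germ_hatF K hK 1 p) ?_
        exact Eventually.of_forall fun t => rfl
      map_mul' := by
        intro a b
        funext p
        refine germ_unique (germ_hatF K hK (a * b) p) ?_
        exact germ_comp (k := (b : Equiv.Perm ℝ)) (k' := (a : Equiv.Perm ℝ))
          (germ_hatF K hK b p) (germ_hatF K hK a (hatF K hK b p)) }

theorem germ_hat (k : K) (p : ℝ × Bool) : Germ (k : Equiv.Perm ℝ) p (hat K hK k p) :=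
  germ_hatF K hK k p

theorem hat_eq {k : K} {p q : ℝ × Bool} (h : Germ (k : Equiv.Perm ℝ) p q) :
    hat K hK k p = q :=
  germ_unique (germ_hat K hK k p) h

/-- Elements which act trivially on the germs move finitely many points only. -/
theorem ker_hat {k : K} (h : hat K hK k = 1) : {x : ℝ | (k : Equiv.Perm ℝ) x ≠ x}.Finite := by
  obtain ⟨B, hB⟩ := hK k.1 k.2
  refine B.finite_toSet.subset fun x hx => ?_
  by_contra hxB
  refine hx ?_
  obtain ⟨δ, h0, h1⟩ := exists_gap B x
  obtain ⟨s, c, hc⟩ := aff_Ioo hB (a := x - δ) (b := x + δ) (by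
    rintro t ht ⟨h2, h3⟩
    have := h1 t ht (fun h => hxB (by rw [Finset.mem_coe, ← h]; exact ht))
    have h4 : |t - x| < δ := abs_lt.2 ⟨by linarith, by linarith⟩
    linarith)
  have h2 := hat_eq K hK (germ_right hc (by linarith : x - δ ≤ x) (by linarith))
  rw [h] at h2
  have h3 : x = c + sg s * x := congrArg Prod.fst h2
  rw [hc x (by linarith) (by linarith)]
  exact h3.symm

/-- A group of finitely supported permutations is in the class. -/
theorem fpb_ker_hat : FPB (hat K hK).ker := by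
  refine fpb_of_fg fun H hH _ => ?_
  obtain ⟨S, hS⟩ := hH
  -- common support
  have hT : ∃ T : Set ℝ, T.Finite ∧ ∀ h ∈ H, ∀ x, x ∉ T → ((h : K) : Equiv.Perm ℝ) x = x := by
    refine ⟨⋃ h ∈ S, {x : ℝ | (((h : (hat K hK).ker) : K) : Equiv.Perm ℝ) x ≠ x}, ?_, ?_⟩
    · exact S.finite_toSet.biUnion fun h _ => ker_hat K hK h.2
    · intro h hh
      rw [← hS] at hh
      refine Subgroup.closure_induction (p := fun h _ => ∀ x,
        x ∉ ⋃ h ∈ S, {x : ℝ | (((h : (hat K hK).ker) : K) : Equiv.Perm ℝ) x ≠ x} →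
          (((h : (hat K hK).ker) : K) : Equiv.Perm ℝ) x = x) ?_ ?_ ?_ ?_ hh
      · intro y hy x hx
        by_contra hne
        exact hx (mem_biUnion hy hne)
      · intro x _
        rfl
      · intro a b _ _ ha hb x hx
        change ((a : K) : Equiv.Perm ℝ) (((b : K) : Equiv.Perm ℝ) x) = x
        rw [hb x hx, ha x hx]
      · intro a _ ha x hx
        change ((a : K) : Equiv.Perm ℝ)⁻¹ x = x
        rw [Equiv.Perm.inv_eq_iff_eq]
        exact (ha x hx).symm
  obtain ⟨T, hT, hfix⟩ := hT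
  classical
  have hTf : Finite (Subtype (· ∈ T)) := hT
  have hfin : Finite {f : Equiv.Perm ℝ // ∀ a, ¬ (a ∈ T) → f a = a} :=
    Finite.of_equiv _ (Equiv.Perm.subtypeEquivSubtypePerm (· ∈ T))
  let F : H → {f : Equiv.Perm ℝ // ∀ a, ¬ (a ∈ T) → f a = a} := fun h =>
    ⟨((h.1 : K) : Equiv.Perm ℝ), fun a ha => hfix h.1 h.2 a ha⟩
  have hF : Function.Injective F := by
    intro h h' he
    have h1 : ((h.1 : K) : Equiv.Perm ℝ) = ((h'.1 : K) : Equiv.Perm ℝ) :=
      congrArg (fun z : {f : Equiv.Perm ℝ // ∀ a, ¬ (a ∈ T) → f a = a} => (z : Equiv.Perm ℝ)) he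
    exact Subtype.ext (Subtype.ext (Subtype.ext h1))
  exact Finite.of_injective F hF

end hat

end Vale.Agent.P192.H834
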