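import Vale.Agent.P192.H834.Flip

/-!
# P192: from interval exchange transformations to piecewise isometries of the line, second half
-/

open Filter Topology Set

namespace Vale.Agent.P192.H834

/-! ### ends -/

/-- `k` carries the end `e` to the end `q.2`, with translation part `q.1`. -/
def EG (k : ℝ → ℝ) (e : Bool) (q : ℝ × Bool) : Prop :=
  ∀ᶠ t in atTop, k (sg e * t) = q.1 + sg q.2 * t

theorem eg_exists {k : ℝ → ℝ} {B : Finset ℝ} (h : PIB k B) (e : Bool) : ∃ q, EG k e q := by
  obtain ⟨m, hm⟩ : ∃ m : ℝ, ∀ b ∈ B, |b| ≤ m := by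
    obtain ⟨m, hm⟩ := (B.image fun b => |b|).bddAbove
    exact ⟨m, fun b hb => hm (Finset.mem_coe.2 (Finset.mem_image_of_mem _ hb))⟩
  cases e
  · obtain ⟨s, c, hc⟩ := aff_of_isom (k := k) (I := Iio (-m)) (fun x hx y hy => h x y (by
      intro t ht htm
      have h1 := (ordConnected_Iio (a := -m)).uIcc_subset hx hy htm
      have h2 := neg_abs_le t
      have h3 := hm t ht
      rw [mem_Iio] at h1
      linarith))
    refine ⟨(c, !s), ?_⟩
    filter_upwards [eventually_gt_atTop m] with t ht
    rw [hc _ (by rw [mem_Iio, sg_false]; linarith)]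
    cases s <;> simp
  · obtain ⟨s, c, hc⟩ := aff_of_isom (k := k) (I := Ioi m) (fun x hx y hy => h x y (by
      intro t ht htm
      have h1 := (ordConnected_Ioi (a := m)).uIcc_subset hx hy htm
      have h2 := le_abs_self t
      have h3 := hm t ht
      rw [mem_Ioi] at h1
      linarith))
    refine ⟨(c, s), ?_⟩
    filter_upwards [eventually_gt_atTop m] with t ht
    rw [hc _ (by rw [mem_Ioi, sg_true]; linarith)]
    simp

theorem eg_unique {k : ℝ → ℝ} {e : Bool} {q q' : ℝ × Bool} (h : EG k e q) (h' : EG k e q') :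
    q = q' := by
  have he : ∀ᶠ t in atTop, q.1 + sg q.2 * t = q'.1 + sg q'.2 * t := by
    filter_upwards [h, h'] with t h1 h2
    rw [← h1, ← h2]
  obtain ⟨a, ha⟩ := eventually_atTop.1 he
  have h1 := ha a le_rfl
  have h2 := ha (a + 1) (by linarith)
  have h3 : sg q.2 = sg q'.2 := by linarith
  rw [h3] at h1
  exact Prod.ext (add_right_cancel h1) (sg_inj h3)

theorem eg_comp {k k' : ℝ → ℝ} {e : Bool} {q r : ℝ × Bool} (h : EG k e q) (h' : EG k' q.2 r) :
    EG (fun x => k' (k x)) e (r.1 + sg r.2 * (sg q.2 * q.1), r.2) := by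
  have h1 : Tendsto (fun t : ℝ => t + sg q.2 * q.1) atTop atTop :=
    tendsto_atTop_add_const_right _ _ tendsto_id
  filter_upwards [h, h1.eventually h'] with t h2 h3
  rw [h2]
  have h4 : q.1 + sg q.2 * t = sg q.2 * (t + sg q.2 * q.1) := by
    rw [mul_add, ← mul_assoc, sg_sq]
    ring
  rw [h4, h3]
  ring

section ends

variable (K : Subgroup (Equiv.Perm ℝ)) (hK : ∀ k ∈ K, ∃ B : Finset ℝ, PIB k B)

/-- The action on ends, as functions. -/
noncomputable def endF (k : K) : Function.End Bool := fun e =>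
  (Classical.choose (eg_exists (Classical.choose_spec (hK k.1 k.2)) e)).2

theorem eg_endF (k : K) (e : Bool) : ∃ c, EG (k : Equiv.Perm ℝ) e (c, endF K hK k e) :=
  ⟨_, Classical.choose_spec (eg_exists (Classical.choose_spec (hK k.1 k.2)) e)⟩

/-- The action on ends. -/
noncomputable def ends : K →* Equiv.Perm Bool :=
  MonoidHom.toHomPerm
    { toFun := endF K hK
      map_one' := by
        funext e
        obtain ⟨c, hc⟩ := eg_endF K hK 1 e
        have h1 : EG (((1 : K) : Equiv.Perm ℝ) : ℝ → ℝ) e (0, e) :=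
          Eventually.of_forall fun t => by simp
        exact congrArg Prod.snd (eg_unique hc h1)
      map_mul' := by
        intro a b
        funext e
        obtain ⟨c, hc⟩ := eg_endF K hK (a * b) e
        obtain ⟨c1, h1⟩ := eg_endF K hK b e
        obtain ⟨c2, h2⟩ := eg_endF K hK a (endF K hK b e)
        have h3 : EG ((((a * b : K) : Equiv.Perm ℝ)) : ℝ → ℝ) e
            (c2 + sg (endF K hK a (endF K hK b e)) * (sg (endF K hK b e) * c1),
              endF K hK a (endF K hK b e)) :=
          eg_comp (k := (b : Equiv.Perm ℝ)) (k' := (a : Equiv.Perm ℝ)) h1 h2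
        have h4 := congrArg Prod.snd (eg_unique hc h3)
        exact h4 }

theorem eg_ker {k : K} (h : k ∈ (ends K hK).ker) (e : Bool) :
    ∃ c, EG (k : Equiv.Perm ℝ) e (c, e) := by
  obtain ⟨c, hc⟩ := eg_endF K hK k e
  have h1 : endF K hK k e = e := by
    have : ends K hK k e = (1 : Equiv.Perm Bool) e := by rw [MonoidHom.mem_ker.1 h]
    exact this
  rw [h1] at hc
  exact ⟨c, hc⟩

end ends

theorem eg_pow {k : Equiv.Perm ℝ} {e : Bool} {c : ℝ} (h : EG k e (c, e)) (n : ℕ) :
    EG (k ^ n : Equiv.Perm ℝ) e (n * c, e) := by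
  induction n with
  | zero => exact Eventually.of_forall fun t => by simp
  | succ n ih =>
    have h1 := eg_comp (k := k) (k' := (k ^ n : Equiv.Perm ℝ)) h ih
    have h2 : sg e * (sg e * c) = c := by rw [← mul_assoc, sg_sq, one_mul]
    filter_upwards [h1] with t ht
    rw [pow_succ, Equiv.Perm.mul_apply, ht]
    simp only [h2]
    push_cast
    ring

/-- A periodic element which preserves the ends is trivial near the ends. -/
theorem eg_torsion {k : Equiv.Perm ℝ} {e : Bool} {c : ℝ} (h : EG k e (c, e))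
    (hk : IsOfFinOrder k) : EG k e (0, e) := by
  obtain ⟨n, hn, hkn⟩ := isOfFinOrder_iff_pow_eq_one.1 hk
  have h1 := eg_pow h n
  rw [hkn] at h1
  have h2 : EG ((1 : Equiv.Perm ℝ) : ℝ → ℝ) e (0, e) := Eventually.of_forall fun t => by simp
  have h3 : (n : ℝ) * c = 0 := congrArg Prod.fst (eg_unique h1 h2)
  have h4 : c = 0 := by
    rcases mul_eq_zero.1 h3 with h5 | h5
    · exact absurd (Nat.cast_eq_zero.1 h5) hn.ne'
    · exact h5
  rwa [h4] at h

/-- Such an element is the identity far away. -/
theorem exists_window {k : Equiv.Perm ℝ} (h : ∀ e, EG k e (0, e)) :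
    ∃ M : ℝ, ∀ x, M ≤ |x| → k x = x := by
  obtain ⟨a, ha⟩ := eventually_atTop.1 (h true)
  obtain ⟨b, hb⟩ := eventually_atTop.1 (h false)
  refine ⟨max a b, fun x hx => ?_⟩
  rcases le_total 0 x with h0 | h0
  · rw [abs_of_nonneg h0] at hx
    have := ha x ((le_max_left _ _).trans hx)
    simpa using this
  · rw [abs_of_nonpos h0] at hx
    have := hb (-x) ((le_max_right _ _).trans hx)
    simpa using this

/-! ### the doubled interval -/

/-- The part of the doubled line over `[-M, M]`. -/
def X (M : ℝ) : Set (ℝ × Bool) :=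
  {p | (p.2 = true ∧ -M ≤ p.1 ∧ p.1 < M) ∨ (p.2 = false ∧ -M < p.1 ∧ p.1 ≤ M)}

/-- coordinate -/
noncomputable def co (M : ℝ) (p : ℝ × Bool) : ℝ := if p.2 then p.1 + M else 3 * M - p.1

/-- inverse coordinate -/
noncomputable def uco (M : ℝ) (y : ℝ) : ℝ × Bool :=
  if y < 2 * M then (y - M, true) else (3 * M - y, false)

theorem uco_mem {M y : ℝ} (hy : y ∈ Ico 0 (4 * M)) : uco M y ∈ X M ∧ co M (uco M y) = y := by
  obtain ⟨h1, h2⟩ := hy
  unfold uco
  split_ifs with h
  · refine ⟨Or.inl ⟨rfl, ?_, ?_⟩, ?_⟩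
    · change -M ≤ y - M
      linarith
    · change y - M < M
      linarith
    · simp [co]
  · refine ⟨Or.inr ⟨rfl, ?_, ?_⟩, ?_⟩
    · change -M < 3 * M - y
      linarith
    · change 3 * M - y ≤ M
      linarith [not_lt.1 h]
    · simp [co]

theorem co_mem {M : ℝ} {p : ℝ × Bool} (hp : p ∈ X M) :
    co M p ∈ Ico 0 (4 * M) ∧ uco M (co M p) = p := by
  obtain ⟨x, e⟩ := p
  rcases hp with ⟨h1, h2, h3⟩ | ⟨h1, h2, h3⟩
  · change e = true at h1
    change -M ≤ x at h2
    change x < M at h3
    subst h1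
    have e1 : co M (x, true) = x + M := by simp [co]
    refine ⟨by rw [e1]; exact ⟨by linarith, by linarith⟩, ?_⟩
    rw [e1, uco, if_pos (by linarith)]
    simp
  · change e = false at h1
    change -M < x at h2
    change x ≤ M at h3
    subst h1
    have e1 : co M (x, false) = 3 * M - x := by simp [co]
    refine ⟨by rw [e1]; exact ⟨by linarith, by linarith⟩, ?_⟩
    rw [e1, uco, if_neg (by linarith)]
    simp

section double

variable {Γ : Type} [Group Γ] (θ : Γ →* Equiv.Perm (ℝ × Bool)) (M : ℝ)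
  (hθ : ∀ g p, p ∉ X M → θ g p = p)

include hθ in
theorem pres {p : ℝ × Bool} (hp : p ∈ X M) (g : Γ) : θ g p ∈ X M := by
  by_contra h
  have h1 := hθ g _ h
  have h2 := (θ g).injective h1
  rw [h2] at h
  exact h hp

open Classical in
/-- The action on the doubled interval in coordinates, as functions. -/
noncomputable def roF (g : Γ) : Function.End ℝ := fun y =>
  if y ∈ Ico 0 (4 * M) then co M (θ g (uco M y)) else y

/-- The action on the doubled interval in coordinates. -/
noncomputable def ro : Γ →* Equiv.Perm ℝ :=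
  MonoidHom.toHomPerm
    { toFun := roF θ M
      map_one' := by
        funext y
        unfold roF
        split_ifs with h
        · rw [map_one]
          exact (uco_mem h).2
        · rfl
      map_mul' := by
        intro a b
        funext y
        change roF θ M (a * b) y = roF θ M a (roF θ M b y)
        by_cases h : y ∈ Ico 0 (4 * M)
        · have h1 := pres θ M hθ (uco_mem h).1 b
          have h2 := co_mem h1
          have h3 : roF θ M b y = co M (θ b (uco M y)) := if_pos h
          rw [h3]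
          unfold roF
          rw [if_pos h, if_pos h2.1, h2.2, map_mul, Equiv.Perm.mul_apply]
        · have h3 : roF θ M b y = y := if_neg h
          rw [h3]
          unfold roF
          rw [if_neg h, if_neg h] }

theorem ro_of_mem (g : Γ) {y : ℝ} (h : y ∈ Ico 0 (4 * M)) :
    ro θ M hθ g y = co M (θ g (uco M y)) := if_pos h

theorem ro_of_notMem (g : Γ) {y : ℝ} (h : y ∉ Ico 0 (4 * M)) : ro θ M hθ g y = y := if_neg h

/-- If the action in coordinates has finite image, so has `θ`. -/
theorem finite_of_ro (h : Finite (ro θ M hθ).range) : Finite θ.range := by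
  classical
  let F : Equiv.Perm ℝ → (ℝ × Bool → ℝ × Bool) := fun r p =>
    if p ∈ X M then uco M (r (co M p)) else p
  have hF : ∀ g : Γ, (θ g : ℝ × Bool → ℝ × Bool) = F (ro θ M hθ g) := by
    intro g
    funext p
    by_cases hp : p ∈ X M
    · have h1 := co_mem hp
      have h2 : F (ro θ M hθ g) p = uco M (ro θ M hθ g (co M p)) := if_pos hp
      rw [h2, ro_of_mem θ M hθ g h1.1, h1.2]
      exact (co_mem (pres θ M hθ hp g)).2.symm
    · have h2 : F (ro θ M hθ g) p = p := if_neg hp
      rw [h2]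
      exact hθ g p hp
  have h3 : ((fun σ : Equiv.Perm (ℝ × Bool) => (σ : ℝ × Bool → ℝ × Bool)) ''
      (θ.range : Set (Equiv.Perm (ℝ × Bool)))).Finite := by
    refine ((Set.toFinite ((ro θ M hθ).range : Set (Equiv.Perm ℝ))).image F).subset ?_
    rintro _ ⟨_, ⟨g, rfl⟩, rfl⟩
    exact ⟨ro θ M hθ g, ⟨g, rfl⟩, (hF g).symm⟩
  exact h3.of_finite_image (DFunLike.coe_injective.injOn)

end double

/-- finite image from finite image modulo a kernel in the class -/
theorem finite_range_of_ker {G Q : Type} [Group G] [Group Q] (q : G →* Q) (hk : FPB q.ker)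
    (Γ : Type) [Group Γ] (hΓ : Group.IsFinitelyPresented Γ) (ht : ∀ x : Γ, IsOfFinOrder x)
    (f : Γ →* G) (h1 : Finite (q.comp f).range) : Finite f.range := by
  set K : Subgroup Γ := (q.comp f).ker with hK
  have hfi : K.FiniteIndex := by
    have : Finite (Γ ⧸ K) := Finite.of_equiv _
      (QuotientGroup.quotientKerEquivRange (q.comp f)).toEquiv.symm
    exact Subgroup.finiteIndex_of_finite_quotient
  have hKfp : Group.IsFinitelyPresented K := fp_of_finiteIndex Γ K
  have hKt : ∀ x : K, IsOfFinOrder x := by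
    intro x
    exact (Submonoid.isOfFinOrder_coe (H := K.toSubmonoid) (x := x)).1 (ht x.1)
  let f' : K →* q.ker := (f.comp K.subtype).codRestrict q.ker (fun x => x.2)
  have h2 : Finite f'.range := hk K hKfp hKt f'
  have h3 : (f '' (K : Set Γ)).Finite := by
    have : f '' (K : Set Γ) ⊆ Subtype.val '' (f'.range : Set q.ker) := by
      rintro _ ⟨x, hx, rfl⟩
      exact ⟨f' ⟨x, hx⟩, ⟨⟨x, hx⟩, rfl⟩, rfl⟩
    exact ((Set.toFinite (f'.range : Set q.ker)).image _).subset this
  have hfq : Finite (Γ ⧸ K) := inferInstance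
  have h4 : (f.range : Set G) ⊆ ⋃ c : Γ ⧸ K,
      (fun y => f (Quotient.out c) * y) '' (f '' (K : Set Γ)) := by
    rintro _ ⟨x, rfl⟩
    rw [Set.mem_iUnion]
    refine ⟨QuotientGroup.mk x, f ((Quotient.out (QuotientGroup.mk x : Γ ⧸ K))⁻¹ * x),
      ⟨_, ?_, rfl⟩, ?_⟩
    · have : (QuotientGroup.mk (Quotient.out (QuotientGroup.mk x : Γ ⧸ K)) : Γ ⧸ K)
        = QuotientGroup.mk x := Quotient.out_eq _
      exact QuotientGroup.eq.1 this
    · simp
  exact (Set.finite_iUnion (fun c => h3.image _)).subset h4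

end Vale.Agent.P192.H834
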