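import Vale.Agent.P192.H834.Flip2

/-!
# P192: groups of piecewise isometries of the line, from interval exchange transformations
-/

open Filter Topology Set

namespace Vale.Agent.P192.H834

section main

variable (K : Subgroup (Equiv.Perm ℝ)) (hK : ∀ k ∈ K, ∃ B : Finset ℝ, PIB k B)

theorem co_diff {s : Bool} {c u v : ℝ} (M : ℝ) :
    co M (c + sg s * v, s) - co M (c + sg s * u, s) = v - u := by
  cases s <;> simp [co] <;> ring

theorem co_diff' {s : Bool} {c u v : ℝ} (M : ℝ) :
    co M (c + sg s * v, !s) - co M (c + sg s * u, !s) = u - v := by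
  cases s <;> simp [co] <;> ring

theorem iet_prop {k : K} {B : Finset ℝ} (hB : PIB (k : Equiv.Perm ℝ) B) (M x y : ℝ)
    (hxy : x < y)
    (h1 : ∀ b ∈ B, ¬ (x < b + M ∧ b + M ≤ y)) (h2 : ∀ b ∈ B, ¬ (x < 3 * M - b ∧ 3 * M - b ≤ y))
    (h3 : ¬ (x < 2 * M ∧ 2 * M ≤ y)) :
    co M (hat K hK k (uco M y)) - co M (hat K hK k (uco M x)) = y - x := by
  rcases lt_or_ge y (2 * M) with hy | hy
  · have hx : x < 2 * M := hxy.trans hy
    have ey : uco M y = (y - M, true) := if_pos hy
    have ex : uco M x = (x - M, true) := if_pos hx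
    obtain ⟨δ, hδ, hgap⟩ := exists_gap B (y - M)
    obtain ⟨s, c, hc⟩ := aff_Ioo hB (a := x - M) (b := y - M + δ) (by
      rintro t ht ⟨h4, h5⟩
      rcases le_or_gt t (y - M) with h6 | h6
      · exact h1 t ht ⟨by linarith, by linarith⟩
      · have h7 := hgap t ht h6.ne'
        rw [abs_of_pos (by linarith)] at h7
        linarith)
    rw [ey, ex, hat_eq K hK (germ_right hc (by linarith) (by linarith : y - M < y - M + δ)),
      hat_eq K hK (germ_right hc le_rfl (by linarith : x - M < y - M + δ)), co_diff]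
    ring
  · have hx : 2 * M ≤ x := by
      by_contra h
      exact h3 ⟨not_le.1 h, hy⟩
    have ey : uco M y = (3 * M - y, false) := if_neg (not_lt.2 hy)
    have ex : uco M x = (3 * M - x, false) := if_neg (not_lt.2 hx)
    obtain ⟨δ, hδ, hgap⟩ := exists_gap B (3 * M - y)
    obtain ⟨s, c, hc⟩ := aff_Ioo hB (a := 3 * M - y - δ) (b := 3 * M - x) (by
      rintro t ht ⟨h4, h5⟩
      rcases lt_or_ge t (3 * M - y) with h6 | h6
      · have h7 := hgap t ht h6.ne
        rw [abs_of_neg (by linarith)] at h7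
        linarith
      · exact h2 t ht ⟨by linarith, by linarith⟩)
    rw [ey, ex, hat_eq K hK (germ_left hc (by linarith : 3 * M - y - δ < 3 * M - y) (by linarith)),
      hat_eq K hK (germ_left hc (by linarith : 3 * M - y - δ < 3 * M - x) le_rfl), co_diff']
    ring

/-- Points far away have trivial germs. -/
theorem hat_far {k : K} {M : ℝ} (hk : ∀ x, M ≤ |x| → (k : Equiv.Perm ℝ) x = x) {p : ℝ × Bool}
    (hp : p ∉ X M) : hat K hK k p = p := by
  obtain ⟨x, e⟩ := p
  refine hat_eq K hK ?_
  cases e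
  · rcases le_or_gt x (-M) with h | h
    · filter_upwards [ev_lt one_pos] with t ht
      refine hk _ ?_
      simp only [sg_false]
      have := neg_le_abs (x + -1 * t)
      linarith [ht.1]
    · have h1 : M < x := by
        by_contra h2
        exact hp (Or.inr ⟨rfl, h, not_lt.1 h2⟩)
      filter_upwards [ev_lt (sub_pos.2 h1)] with t ht
      refine hk _ ?_
      simp only [sg_false]
      have := le_abs_self (x + -1 * t)
      linarith [ht.2]
  · rcases le_or_gt M x with h | h
    · filter_upwards [ev_lt one_pos] with t ht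
      refine hk _ ?_
      simp only [sg_true]
      have := le_abs_self (x + 1 * t)
      linarith [ht.1]
    · have h1 : x < -M := by
        by_contra h2
        exact hp (Or.inl ⟨rfl, not_lt.1 h2, h⟩)
      filter_upwards [ev_lt (sub_pos.2 h1)] with t ht
      refine hk _ ?_
      simp only [sg_true]
      have := neg_le_abs (x + 1 * t)
      linarith [ht.2]

include hK in
/-- **Groups of piecewise isometries of the line are in the class**, given the theorem for interval
exchange transformations. -/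
theorem flips (core : CoreIET) : FPB K := by
  classical
  refine fpb_ext (ends K hK) (fpb_of_finite _) ?_
  intro Γ _ hΓ ht f
  let f1 : Γ →* K := (ends K hK).ker.subtype.comp f
  have hw : ∀ g : Γ, ∃ M : ℝ, ∀ x, M ≤ |x| → ((f1 g : K) : Equiv.Perm ℝ) x = x := by
    intro g
    refine exists_window fun e => ?_
    obtain ⟨c, hc⟩ := eg_ker K hK (f g).2 e
    exact eg_torsion hc (MonoidHom.isOfFinOrder (K.subtype.comp f1) (ht g))
  have hfg : Group.FG Γ := by
    obtain ⟨n, φ, hφ, -⟩ := id hΓ
    exact Group.fg_of_surjective hφ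
  obtain ⟨S, hS⟩ := hfg.out
  choose m hm using hw
  obtain ⟨M, hM⟩ : ∃ M : ℝ, ∀ s ∈ S, m s ≤ M := by
    obtain ⟨M, hM⟩ := (S.image m).bddAbove
    exact ⟨M, fun s hs => hM (Finset.mem_coe.2 (Finset.mem_image_of_mem _ hs))⟩
  have hwin : ∀ (g : Γ) (x : ℝ), M ≤ |x| → ((f1 g : K) : Equiv.Perm ℝ) x = x := by
    intro g
    have hg : g ∈ Subgroup.closure (S : Set Γ) := by rw [hS]; exact Subgroup.mem_top g
    refine Subgroup.closure_induction (p := fun g _ => ∀ x : ℝ, M ≤ |x| →
      ((f1 g : K) : Equiv.Perm ℝ) x = x) ?_ ?_ ?_ ?_ hg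
    · intro s hs x hx
      exact hm s x ((hM s hs).trans hx)
    · intro x _
      rw [map_one]
      rfl
    · intro a b _ _ ha hb x hx
      rw [map_mul]
      change ((f1 a : K) : Equiv.Perm ℝ) (((f1 b : K) : Equiv.Perm ℝ) x) = x
      rw [hb x hx, ha x hx]
    · intro a _ ha x hx
      rw [map_inv]
      change ((f1 a : K) : Equiv.Perm ℝ)⁻¹ x = x
      rw [Equiv.Perm.inv_eq_iff_eq]
      exact (ha x hx).symm
  have hθ : ∀ g p, p ∉ X M → ((hat K hK).comp f1) g p = p := fun g p hp =>
    hat_far K hK (hwin g) hp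
  have hfin : Finite (ro ((hat K hK).comp f1) M hθ).range := by
    refine core Γ ht (4 * M) _ (fun g x hx => ro_of_notMem _ M hθ g hx) ?_
    intro g
    obtain ⟨B, hB⟩ := hK (f1 g).1 (f1 g).2
    refine ⟨B.image (· + M) ∪ B.image (3 * M - ·) ∪ {2 * M}, ?_⟩
    intro x y hx hxy hy hb
    rw [ro_of_mem _ M hθ g ⟨hx.trans hxy.le, hy⟩, ro_of_mem _ M hθ g ⟨hx, hxy.trans hy⟩]
    refine iet_prop K hK hB M x y hxy (fun b hbB => hb _ ?_) (fun b hbB => hb _ ?_) (hb _ ?_)
    · exact Finset.mem_union_left _ (Finset.mem_union_left _ (Finset.mem_image_of_mem _ hbB))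
    · exact Finset.mem_union_left _ (Finset.mem_union_right _ (Finset.mem_image_of_mem _ hbB))
    · exact Finset.mem_union_right _ (Finset.mem_singleton_self _)
  have h1 : Finite ((hat K hK).comp f1).range := finite_of_ro _ M hθ hfin
  have h2 : Finite f1.range :=
    finite_range_of_ker (hat K hK) (fpb_ker_hat K hK) Γ hΓ ht f1 h1
  have hmem : ∀ x : f.range, ((x.1 : (ends K hK).ker) : K) ∈ f1.range := by
    rintro ⟨_, ⟨g, rfl⟩⟩
    exact ⟨g, rfl⟩
  let F : f.range → f1.range := fun x => ⟨((x.1 : (ends K hK).ker) : K), hmem x⟩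
  have hF : Function.Injective F := by
    intro x y hxy
    have h3 : ((x.1 : (ends K hK).ker) : K) = ((y.1 : (ends K hK).ker) : K) :=
      congrArg (fun z : f1.range => (z : K)) hxy
    exact Subtype.ext (Subtype.ext h3)
  exact Finite.of_injective F hF

end main

end Vale.Agent.P192.H834
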