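import Vale.Agent.P192.H834.Flip3
import Vale.Agent.P192.H826.Iet4

/-!
# P192: groups of piecewise isometries of the line, unconditional
-/

namespace Vale.Agent.P192.H834

/-- **Piecewise isometries of the line (interval exchanges with flips).** If every element of a
group `K` of permutations of `ℝ` is an isometry on every interval which avoids a finite set
(depending on the element), then every homomorphism from a finitely presented periodic group to
`K` has finite image. -/
theorem fpb_piecewise (K : Subgroup (Equiv.Perm ℝ))
    (hK : ∀ k ∈ K, ∃ B : Finset ℝ, ∀ x y, (∀ b ∈ B, b ∉ Set.uIcc x y) → |k x - k y| = |x - y|) :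
    FPB K :=
  flips K hK fun G _ _ hG L ρ h1 h2 => Iet.core G hG L ρ h1 h2

end Vale.Agent.P192.H834
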