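import Mathlib

/-!
# P192: an integer valued function which respects the signs of finitely many alternating sums
-/

open Filter Topology

namespace Vale.Agent.P192.H834

/-- Simultaneous Dirichlet approximation (pigeonhole form). -/
theorem exists_two (Z : Finset ℝ) (ε : ℝ) (hε : 0 < ε) :
    ∃ m n : ℕ, m < n ∧ ∀ x ∈ Z, |Int.fract ((n : ℝ) * x) - Int.fract ((m : ℝ) * x)| < ε := by
  have hc : IsCompact (Set.Icc (0 : Z → ℝ) 1) := isCompact_Icc
  obtain ⟨a, -, φ, hφ, ht⟩ := hc.tendsto_subseq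
    (x := fun n : ℕ => fun x : Z => Int.fract ((n : ℝ) * (x : ℝ)))
    (fun n => ⟨fun x => Int.fract_nonneg _, fun x => (Int.fract_lt_one _).le⟩)
  obtain ⟨N, hN⟩ := Metric.tendsto_atTop.1 ht (ε / 2) (by positivity)
  refine ⟨φ N, φ (N + 1), hφ (Nat.lt_succ_self N), fun x hx => ?_⟩
  have h1 := (dist_le_pi_dist _ _ (⟨x, hx⟩ : Z)).trans_lt (hN N le_rfl)
  have h2 := (dist_le_pi_dist _ _ (⟨x, hx⟩ : Z)).trans_lt (hN (N + 1) (Nat.le_succ N))
  rw [Real.dist_eq] at h1 h2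
  simp only [Function.comp] at h1 h2
  rw [abs_lt] at h1 h2 ⊢
  constructor <;> linarith [h1.1, h1.2, h2.1, h2.2]

/-- Finitely many positive numbers have a positive lower bound. -/
theorem exists_low (P : Finset ℝ) : ∃ δ : ℝ, 0 < δ ∧ ∀ p ∈ P, 0 < p → δ ≤ p := by
  classical
  induction P using Finset.induction_on with
  | empty => exact ⟨1, one_pos, fun p hp => absurd hp (Finset.notMem_empty p)⟩
  | insert a s ha ih =>
    obtain ⟨δ, h0, h1⟩ := ih
    by_cases h : 0 < a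
    · refine ⟨min δ a, lt_min h0 h, fun p hp hp0 => ?_⟩
      rcases Finset.mem_insert.1 hp with rfl | hp
      · exact min_le_right _ _
      · exact (min_le_left _ _).trans (h1 p hp hp0)
    · refine ⟨δ, h0, fun p hp hp0 => ?_⟩
      rcases Finset.mem_insert.1 hp with rfl | hp
      · exact absurd hp0 h
      · exact h1 p hp hp0

theorem exists_nu (Z : Finset ℝ) : ∃ ν : ℝ → ℤ, ν 0 = 0 ∧
    ∀ x ∈ Z, ∀ y ∈ Z, ∀ z ∈ Z, ∀ w ∈ Z,
      (0 < x - y + z - w → 0 < ν x - ν y + ν z - ν w) ∧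
      (x - y + z - w = 0 → ν x - ν y + ν z - ν w = 0) := by
  classical
  obtain ⟨δ, hδ, hlow⟩ := exists_low ((Z ×ˢ Z ×ˢ Z ×ˢ Z).image
    fun q => q.1 - q.2.1 + q.2.2.1 - q.2.2.2)
  obtain ⟨m, n, hmn, hfr⟩ := exists_two Z (min δ 1 / 4) (by positivity)
  refine ⟨fun x => ⌊(n : ℝ) * x⌋ - ⌊(m : ℝ) * x⌋, by simp, ?_⟩
  have hq : (1 : ℝ) ≤ (n : ℝ) - m := by
    have : (m : ℝ) + 1 ≤ n := by exact_mod_cast hmn
    linarith
  have hε1 : min δ 1 / 4 * 4 ≤ δ := by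
    have := min_le_left δ 1
    linarith
  have hε2 : min δ 1 / 4 * 4 ≤ 1 := by
    have := min_le_right δ 1
    linarith
  have hap : ∀ x ∈ Z, |((⌊(n : ℝ) * x⌋ - ⌊(m : ℝ) * x⌋ : ℤ) : ℝ) - ((n : ℝ) - m) * x| <
      min δ 1 / 4 := by
    intro x hx
    have h1 := hfr x hx
    have h2 := Int.floor_add_fract ((n : ℝ) * x)
    have h3 := Int.floor_add_fract ((m : ℝ) * x)
    rw [abs_lt] at h1 ⊢
    push_cast
    constructor <;> linarith [h1.1, h1.2]
  intro x hx y hy z hz w hw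
  have ax := abs_lt.1 (hap x hx)
  have ay := abs_lt.1 (hap y hy)
  have az := abs_lt.1 (hap z hz)
  have aw := abs_lt.1 (hap w hw)
  simp only
  generalize ⌊(n : ℝ) * x⌋ - ⌊(m : ℝ) * x⌋ = X at ax ⊢
  generalize ⌊(n : ℝ) * y⌋ - ⌊(m : ℝ) * y⌋ = Y at ay ⊢
  generalize ⌊(n : ℝ) * z⌋ - ⌊(m : ℝ) * z⌋ = U at az ⊢
  generalize ⌊(n : ℝ) * w⌋ - ⌊(m : ℝ) * w⌋ = W at aw ⊢
  constructor
  · intro h
    have hd : δ ≤ x - y + z - w := hlow _ (Finset.mem_image.2
      ⟨(x, y, z, w), by simp only [Finset.mem_product]; exact ⟨hx, hy, hz, hw⟩, rfl⟩) h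
    have h1 : x - y + z - w ≤ ((n : ℝ) - m) * (x - y + z - w) :=
      le_mul_of_one_le_left h.le hq
    have h2 : (0 : ℝ) < (X : ℝ) - Y + U - W := by linarith [ax.1, ay.2, az.1, aw.2]
    exact_mod_cast h2
  · intro h
    have h1 : ((n : ℝ) - m) * (x - y + z - w) = 0 := by rw [h, mul_zero]
    have h2 : (X : ℝ) - Y + U - W < 1 := by linarith [ax.2, ay.1, az.2, aw.1]
    have h3 : (-1 : ℝ) < (X : ℝ) - Y + U - W := by linarith [ax.1, ay.2, az.1, aw.2]
    have h4 : X - Y + U - W < 1 := by exact_mod_cast h2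
    have h5 : -1 < X - Y + U - W := by exact_mod_cast h3
    omega

end Vale.Agent.P192.H834
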