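import Vale.Agent.P192.H663.CMDefs

/-!
# P192: bounded displacement off a finite set: blocks in a linear order
-/

namespace Vale.Agent.P192.H834.Wob

open Set

variable {K : Type} [LinearOrder K]

/-- finite distance -/
def fd (K : Type) [LinearOrder K] : Setoid K where
  r x y := (uIcc x y).Finite
  iseqv :=
    { refl := fun x => by rw [uIcc_self]; exact finite_singleton x
      symm := fun {x y} h => by rw [uIcc_comm]; exact h
      trans := fun {x y z} h1 h2 => (h1.union h2).subset uIcc_subset_uIcc_union_uIcc }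

/-- the base point of the class -/
noncomputable def bs (x : K) : K := Quotient.out (Quotient.mk (fd K) x)

theorem bs_fin (x : K) : (uIcc (bs x) x).Finite :=
  Quotient.exact (s := fd K) (Quotient.out_eq (Quotient.mk (fd K) x))

theorem bs_eq {x y : K} (h : (uIcc x y).Finite) : bs x = bs y := by
  unfold bs
  rw [Quotient.sound (s := fd K) h]

open Classical in
/-- the position in the class -/
noncomputable def pos (x : K) : ℤ :=
  if bs x ≤ x then ((Ico (bs x) x).ncard : ℤ) else -((Ico x (bs x)).ncard : ℤ)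

theorem ncard_Ico_add {a b c : K} (h1 : a ≤ b) (h2 : b ≤ c) (hf : (Icc a c).Finite) :
    ((Ico a c).ncard : ℤ) = (Ico a b).ncard + (Ico b c).ncard := by
  have e : Ico a c = Ico a b ∪ Ico b c := (Ico_union_Ico_eq_Ico h1 h2).symm
  have f1 : (Ico a b).Finite := hf.subset fun x hx => ⟨hx.1, hx.2.le.trans h2⟩
  have f2 : (Ico b c).Finite := hf.subset fun x hx => ⟨h1.trans hx.1, hx.2.le⟩
  have hd : Disjoint (Ico a b) (Ico b c) := by
    rw [Set.disjoint_left]
    intro x hx hx'
    exact absurd hx.2 (not_lt.2 hx'.1)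
  rw [e, ncard_union_eq hd f1 f2]
  push_cast
  rfl

theorem pos_sub {x y : K} (hxy : x ≤ y) (h : (Icc x y).Finite) :
    pos y - pos x = (Ico x y).ncard := by
  have hu : (uIcc x y).Finite := by rwa [uIcc_of_le hxy]
  have hb : bs x = bs y := bs_eq hu
  have h1 := bs_fin x
  have h2 := bs_fin y
  unfold pos
  rw [hb] at h1 ⊢
  set b := bs y
  rcases le_or_gt b x with hbx | hbx
  · have hby := hbx.trans hxy
    rw [if_pos hbx, if_pos hby, ncard_Ico_add hbx hxy (by rwa [uIcc_of_le hby] at h2)]
    ring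
  · rw [if_neg (not_le.2 hbx)]
    rcases le_or_gt b y with hby | hby
    · rw [if_pos hby, ncard_Ico_add hbx.le hby h]
      ring
    · rw [if_neg (not_le.2 hby), ncard_Ico_add hxy hby.le (by rwa [uIcc_of_ge hbx.le] at h1)]
      ring

theorem pos_lt {x y : K} (hxy : x < y) (h : (Icc x y).Finite) : pos x < pos y := by
  have h1 := pos_sub hxy.le h
  have h2 : 0 < (Ico x y).ncard := by
    rw [ncard_pos (h.subset Ico_subset_Icc_self)]
    exact ⟨x, le_rfl, hxy⟩
  have h3 : (0 : ℤ) < (Ico x y).ncard := by exact_mod_cast h2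
  omega

theorem pos_inj {x y : K} (h : (uIcc x y).Finite) (e : pos x = pos y) : x = y := by
  rcases lt_trichotomy x y with h1 | h1 | h1
  · rw [uIcc_of_le h1.le] at h
    exact absurd e (pos_lt h1 h).ne
  · exact h1
  · rw [uIcc_of_ge h1.le] at h
    exact absurd e (pos_lt h1 h).ne'

/-- near points have near positions -/
theorem pos_near {x y : K} {c : ℕ} (h : (uIcc x y).encard ≤ c) :
    (uIcc x y).Finite ∧ |pos x - pos y| ≤ c := by
  have hf : (uIcc x y).Finite := finite_of_encard_le_coe h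
  refine ⟨hf, ?_⟩
  have key : ∀ x y : K, x ≤ y → (uIcc x y).Finite → (uIcc x y).encard ≤ c →
      |pos x - pos y| ≤ c := by
    intro x y hxy hf h
    rw [uIcc_of_le hxy] at hf h
    have h1 := pos_sub hxy hf
    have h2 : (Ico x y).encard ≤ c := (encard_le_encard Ico_subset_Icc_self).trans h
    have h3 : (Ico x y).ncard ≤ c := by
      have h4 := (hf.subset Ico_subset_Icc_self).cast_ncard_eq
      rw [← h4] at h2
      exact_mod_cast h2
    rw [abs_sub_comm, h1, abs_of_nonneg (by positivity)]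
    exact_mod_cast h3
  rcases le_total x y with hxy | hxy
  · exact key x y hxy hf h
  · rw [abs_sub_comm]
    rw [uIcc_comm] at hf h
    exact key y x hxy hf h

/-- the block -/
noncomputable def blk (c : ℕ) (x : K) : ℤ := pos x / (c + 1)

/-- the points in the same block -/
def Bl (c : ℕ) (x : K) : Set K := {z | (uIcc x z).Finite ∧ blk c z = blk c x}

theorem Bl_self (c : ℕ) (x : K) : x ∈ Bl c x :=
  ⟨by rw [uIcc_self]; exact finite_singleton x, rfl⟩

theorem Bl_trans {c : ℕ} {x y z : K} (h1 : y ∈ Bl c x) (h2 : z ∈ Bl c y) : z ∈ Bl c x :=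
  ⟨(h1.1.union h2.1).subset uIcc_subset_uIcc_union_uIcc, h2.2.trans h1.2⟩

theorem Bl_card (c : ℕ) (x : K) : (Bl c x).encard ≤ ((c + 1 : ℕ) : ℕ∞) := by
  have h1 : MapsTo pos (Bl c x) (Finset.Ico (blk c x * (c + 1)) (blk c x * (c + 1) + (c + 1)) :
      Finset ℤ) := by
    intro z hz
    rw [Finset.mem_coe, Finset.mem_Ico, ← hz.2]
    unfold blk
    have hc : (0 : ℤ) < (c : ℤ) + 1 := by positivity
    have e := Int.emod_add_mul_ediv (pos z) ((c : ℤ) + 1)
    have e1 := Int.emod_nonneg (pos z) hc.ne'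
    have e2 := Int.emod_lt_of_pos (pos z) hc
    constructor
    · nlinarith
    · nlinarith
  have h2 : InjOn (pos : K → ℤ) (Bl c x) := by
    intro y hy z hz e
    refine pos_inj ?_ e
    have h3 : (uIcc y x).Finite := by rw [uIcc_comm]; exact hy.1
    exact (h3.union hz.1).subset uIcc_subset_uIcc_union_uIcc
  refine (encard_le_encard_of_injOn h1 h2).trans ?_
  rw [encard_coe_eq_coe_finsetCard, Int.card_Ico]
  have : (blk c x * (c + 1) + (c + 1) - blk c x * (c + 1)).toNat = c + 1 := by
    have : blk c x * (c + 1) + (c + 1) - blk c x * (c + 1) = ((c + 1 : ℕ) : ℤ) := by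
      push_cast
      ring
    rw [this, Int.toNat_natCast]
  rw [this]

/-- the colour -/
def Cl (c : ℕ) : Set K := {x | Even (blk c x)}

/-- near points of the same colour are in the same block -/
theorem same_block {c : ℕ} {x y : K} (h : (uIcc x y).encard ≤ c)
    (hc : x ∈ Cl c ↔ y ∈ Cl c) : y ∈ Bl c x := by
  obtain ⟨h1, h2⟩ := pos_near h
  refine ⟨h1, ?_⟩
  have hpos : (0 : ℤ) < (c : ℤ) + 1 := by positivity
  have h3 := abs_le.1 h2
  have h4 : blk c y ≤ blk c x + 1 := by
    unfold blk
    have : pos y ≤ pos x + 1 * ((c : ℤ) + 1) := by linarith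
    calc pos y / ((c : ℤ) + 1) ≤ (pos x + 1 * ((c : ℤ) + 1)) / ((c : ℤ) + 1) :=
          Int.ediv_le_ediv hpos this
      _ = pos x / ((c : ℤ) + 1) + 1 := Int.add_mul_ediv_right _ _ hpos.ne'
  have h5 : blk c x ≤ blk c y + 1 := by
    unfold blk
    have : pos x ≤ pos y + 1 * ((c : ℤ) + 1) := by linarith
    calc pos x / ((c : ℤ) + 1) ≤ (pos y + 1 * ((c : ℤ) + 1)) / ((c : ℤ) + 1) :=
          Int.ediv_le_ediv hpos this
      _ = pos y / ((c : ℤ) + 1) + 1 := Int.add_mul_ediv_right _ _ hpos.ne'
  have h6 : Even (blk c x) ↔ Even (blk c y) := hc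
  rcases (show blk c y = blk c x ∨ blk c y = blk c x + 1 ∨ blk c x = blk c y + 1 by omega) with
    h | h | h
  · exact h
  · exfalso
    rw [h, Int.even_add_one] at h6
    exact (iff_not_self h6)
  · exfalso
    rw [h, Int.even_add_one] at h6
    exact (iff_not_self h6.symm)

/-- the components are small -/
theorem comp_card {c f : ℕ} {F : Set K} (hF : F.encard ≤ f) {r : K → K → Prop}
    (hr : ∀ x y, r x y → (x ∈ Cl c ↔ y ∈ Cl c) ∧ ((uIcc x y).encard ≤ c ∨ x ∈ F ∧ y ∈ F))
    (x : K) : {z | Relation.ReflTransGen r x z}.encard ≤ (((f + 1) * (c + 1) : ℕ) : ℕ∞) := by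
  have hsub : {z | Relation.ReflTransGen r x z} ⊆ ⋃ e ∈ insert x F, Bl c e := by
    intro z hz
    induction hz with
    | refl => exact mem_iUnion₂.2 ⟨x, mem_insert _ _, Bl_self c x⟩
    | @tail y z _ hyz ih =>
      obtain ⟨h1, h2⟩ := hr y z hyz
      rcases h2 with h2 | h2
      · obtain ⟨e, he, hye⟩ := mem_iUnion₂.1 ih
        exact mem_iUnion₂.2 ⟨e, he, Bl_trans hye (same_block h2 h1)⟩
      · exact mem_iUnion₂.2 ⟨z, mem_insert_of_mem _ h2.2, Bl_self c z⟩
  refine (encard_le_encard hsub).trans ?_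
  have hfin : (insert x F).Finite := (finite_of_encard_le_coe hF).insert x
  have hcard : (insert x F).encard ≤ ((f + 1 : ℕ) : ℕ∞) := by
    refine (encard_insert_le F x).trans ?_
    push_cast
    gcongr
  obtain ⟨T, hT⟩ := hfin.exists_finset_coe
  rw [← hT] at hcard ⊢
  rw [encard_coe_eq_coe_finsetCard] at hcard
  have key : ∀ T : Finset K, (⋃ e ∈ (T : Set K), Bl c e).encard ≤
      ((T.card * (c + 1) : ℕ) : ℕ∞) := by
    intro T
    induction T using Finset.induction_on with
    | empty => simp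
    | insert a T ha ih =>
      rw [Finset.coe_insert, biUnion_insert, Finset.card_insert_of_notMem ha]
      refine (encard_union_le _ _).trans ?_
      refine (add_le_add (Bl_card c a) ih).trans ?_
      rw [← Nat.cast_add]
      refine Nat.cast_le.2 ?_
      rw [Nat.add_mul, one_mul, Nat.add_comm]
  refine (key T).trans (Nat.cast_le.2 ?_)
  exact Nat.mul_le_mul_right _ (by exact_mod_cast hcard)

end Vale.Agent.P192.H834.Wob
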