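import Vale.Agent.P192.H834.Wob
import Vale.Agent.P192.H437.ColourG

/-!
# P192: bounded displacement off a finite set: row WOB
-/

namespace Vale.Agent.P192.H834.Wob

open Set Pointwise

theorem finite_words {Γ : Type} [Group Γ] {S : Set Γ} (hS : S.Finite) (n : ℕ) :
    {g : Γ | ∃ w : List Γ, (∀ s ∈ w, s ∈ S ∨ s⁻¹ ∈ S) ∧ w.length ≤ n ∧ w.prod = g}.Finite := by
  have hS1 : {s : Γ | s ∈ S ∨ s⁻¹ ∈ S}.Finite := (hS.union hS.inv).subset fun s h => h
  induction n with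
  | zero =>
    refine (finite_singleton (1 : Γ)).subset ?_
    rintro _ ⟨w, _, hw, rfl⟩
    have : w = [] := List.length_eq_zero_iff.1 (Nat.le_zero.1 hw)
    rw [this]
    exact rfl
  | succ n ih =>
    refine (ih.union (hS1.image2 (fun a b => a * b) ih)).subset ?_
    rintro _ ⟨w, hw, hl, rfl⟩
    cases w with
    | nil => exact Or.inl ⟨[], by simp, by simp, rfl⟩
    | cons s w =>
      refine Or.inr ⟨s, hw s (by simp), w.prod, ⟨w, fun t ht => hw t (by simp [ht]), ?_, rfl⟩, ?_⟩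
      · simpa using hl
      · simp

theorem range_fin {Γ P : Type} [Group Γ] [Group P] (ρ : Γ →* P) (N : Subgroup Γ)
    (hN : N.FiniteIndex) (h : ∀ g ∈ N, ρ g = 1) : Finite ρ.range := by
  have h1 : N ≤ ρ.ker := fun g hg => h g hg
  have := hN
  have : ρ.ker.FiniteIndex := Subgroup.finiteIndex_of_le h1
  have : Finite (Γ ⧸ ρ.ker) := Subgroup.finite_quotient_of_finiteIndex
  exact Finite.of_equiv _ (QuotientGroup.quotientKerEquivRange ρ).toEquiv

/-- **Row WOB.** -/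
theorem wob : CM.WOB_statement := by
  intro K _ G hG Γ _ hΓ ht f
  classical
  have hfg : Group.FG Γ := by
    obtain ⟨n, φ, hφ, -⟩ := id hΓ
    exact Group.fg_of_surjective hφ
  obtain ⟨S0, hS0⟩ := hfg.out
  have hSf : (S0 : Set Γ).Finite := S0.finite_toSet
  obtain ⟨R, hR⟩ := H437.uniform_colour.{0, 0} Γ ht (S0 : Set Γ) hS0
  let act : MulAction Γ K := MulAction.compHom K (G.subtype.comp f)
  have hact : ∀ (g : Γ) (x : K), g • x = (f g : Equiv.Perm K) x := fun _ _ => rfl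
  have hW : ∀ g : Γ, ∃ D : ℕ, {x : K | ¬ (uIcc x (g • x)).encard ≤ D}.Finite :=
    fun g => hG (f g) (f g).2
  choose D hD using hW
  have hH := finite_words hSf R
  set H : Set Γ := {g : Γ | ∃ w : List Γ, (∀ s ∈ w, s ∈ (S0 : Set Γ) ∨ s⁻¹ ∈ (S0 : Set Γ)) ∧
    w.length ≤ R ∧ w.prod = g} with hHdef
  obtain ⟨c, hc⟩ : ∃ c : ℕ, ∀ g ∈ H, D g ≤ c := by
    obtain ⟨c, hc⟩ := (hH.image D).bddAbove
    exact ⟨c, fun g hg => hc ⟨g, hg, rfl⟩⟩
  let B : Γ → Set K := fun g => {x : K | ¬ (uIcc x (g • x)).encard ≤ D g}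
  let F : Set K := ⋃ g ∈ H, (B g ∪ (fun x => g • x) '' B g)
  have hF : F.Finite := hH.biUnion fun g _ => (hD g).union ((hD g).image _)
  have hFc : F.encard ≤ F.ncard := by rw [hF.cast_ncard_eq]
  obtain ⟨N, -, h2, h3⟩ := hR ((F.ncard + 1) * (c + 1))
  have h4 := h3 K (Cl c) (fun x => comp_card (c := c) hFc (fun x y hxy => by
    obtain ⟨h5, w, hw, hl, rfl⟩ := hxy
    refine ⟨h5, ?_⟩
    have hg : w.prod ∈ H := ⟨w, hw, hl, rfl⟩
    by_cases hx : x ∈ B w.prod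
    · exact Or.inr ⟨mem_iUnion₂.2 ⟨w.prod, hg, Or.inl hx⟩,
        mem_iUnion₂.2 ⟨w.prod, hg, Or.inr ⟨x, hx, rfl⟩⟩⟩
    · refine Or.inl ((not_not.1 hx).trans ?_)
      exact_mod_cast hc _ hg) x)
  refine range_fin f N h2 fun g hg => ?_
  refine Subtype.ext (Equiv.ext fun x => ?_)
  exact h4 g hg x

end Vale.Agent.P192.H834.Wob
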